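import Vale.Agent.P345.Main

namespace Vale.Agent.Results.P345.SingleFold

theorem result (n : ℕ) (_hn : 1 ≤ n) (S : Set (Fin n → ℕ)) (hS : REPred (fun a => a ∈ S)) :
    ∃ (m : ℕ) (P : MvPolynomial (Fin n ⊕ Fin m) ℤ),
      (∀ a : Fin n → ℕ, a ∈ S ↔ ∃ w : Fin m → ℕ,
        MvPolynomial.eval (Sum.elim (fun i => (a i : ℤ)) (fun j => (w j : ℤ))) P = 0) ∧
      ∀ a : Fin n → ℕ, Set.Subsingleton {w : Fin m → ℕ |
        MvPolynomial.eval (Sum.elim (fun i => (a i : ℤ)) (fun j => (w j : ℤ))) P = 0} := by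
  obtain ⟨m, q, ⟨P, hP⟩, h1, h2⟩ := (Vale.Agent.P345.dp_re hS).normal
  have key : ∀ (a : Fin n → ℕ) (w : Fin m → ℕ),
      MvPolynomial.eval (Sum.elim (fun i => (a i : ℤ)) (fun j => (w j : ℤ))) P = q (a, w) := by
    intro a w
    rw [hP]
    congr 2
    funext i
    rcases i with i | i <;> rfl
  refine ⟨m, P, fun a => ?_, fun a w hw w' hw' => ?_⟩
  · simpa only [key] using h1 a
  · exact h2 a w w' ((key a w).symm.trans hw) ((key a w').symm.trans hw')

end Vale.Agent.Results.P345.SingleFold
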